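import Vale.Agent.P125.Al.FDefs

set_option linter.unusedSectionVars false
set_option linter.unusedVariables false

namespace Vale.Agent.P125.Al

open Vale.Agent.P125.Dich
open scoped BigOperators

theorem ps_add {n : ℕ} (x y : Fin n → ℝ) : ps (x + y) = ps x + ps y := by
  funext k
  simp only [ps, Pi.add_apply, Finset.sum_add_distrib]

theorem ps_neg {n : ℕ} (x : Fin n → ℝ) : ps (-x) = - ps x := by
  funext k
  simp only [ps, Pi.neg_apply, Finset.sum_neg_distrib]

theorem ps_zero {n : ℕ} : ps (0 : Fin n → ℝ) = 0 := by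
  funext k
  simp only [ps, Pi.zero_apply, Finset.sum_const_zero]

theorem ps_sm {n : ℕ} {M : Type} (ω : M → Fin n → ℝ) (l : List M) :
    ps (sm ω l) = sm (fun m => ps (ω m)) l := by
  induction l with
  | nil =>
    show ps (0 : Fin n → ℝ) = 0
    exact ps_zero
  | cons a t ih =>
    have e1 : sm ω (a :: t) = ω a + sm ω t := by simp [sm]
    have e2 : sm (fun m => ps (ω m)) (a :: t) = ps (ω a) + sm (fun m => ps (ω m)) t := by
      simp [sm]
    rw [e1, e2, ps_add, ih]

theorem jn_nonneg {n : ℕ} (x : Fin n → ℝ) : 0 ≤ jn x := by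
  unfold jn
  exact norm_nonneg _

theorem jn_neg {n : ℕ} (x : Fin n → ℝ) : jn (-x) = jn x := by
  unfold jn
  rw [ps_neg, norm_neg]

theorem abs_ps_le_jn {n : ℕ} (x : Fin n → ℝ) (k : Fin n) : |ps x k| ≤ jn x := by
  unfold jn
  have := norm_le_pi_norm (ps x) k
  rwa [Real.norm_eq_abs] at this

theorem l1_nonneg {n : ℕ} (x : Fin n → ℝ) : 0 ≤ l1 x := by
  unfold l1
  exact Finset.sum_nonneg fun i _ => abs_nonneg _

/-- every partial sum is at most the `l_1` norm -/
theorem jn_le_l1 {n : ℕ} (x : Fin n → ℝ) : jn x ≤ l1 x := by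
  unfold jn
  rw [pi_norm_le_iff_of_nonneg (l1_nonneg x)]
  intro k
  rw [Real.norm_eq_abs]
  unfold ps l1
  calc |∑ i ∈ Finset.univ.filter (fun i => i ≤ k), x i|
      ≤ ∑ i ∈ Finset.univ.filter (fun i => i ≤ k), |x i| := Finset.abs_sum_le_sum_abs _ _
    _ ≤ ∑ i, |x i| :=
        Finset.sum_le_sum_of_subset_of_nonneg (Finset.filter_subset _ _)
          (fun i _ _ => abs_nonneg _)

end Vale.Agent.P125.Al
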