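import Vale.Agent.P125.Al.FDefs

set_option linter.unusedSectionVars false
set_option linter.unusedVariables false

namespace Vale.Agent.P125.Al

open Vale.Agent.P125.Dich
open scoped BigOperators

theorem tvFrom_map {K K' : Type} (G : K' → ℝ) (φ : K → K') (c : ℝ) (t : List K) :
    tvFrom G c (t.map φ) = tvFrom (fun k => G (φ k)) c t := by
  induction t generalizing c with
  | nil => rfl
  | cons k t ih =>
    simp only [List.map_cons, tvFrom]
    rw [ih]

theorem tvFrom_congr {K : Type} (G G' : K → ℝ) (h : ∀ k, G k = G' k) (c : ℝ) (t : List K) :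
    tvFrom G c t = tvFrom G' c t := by
  have hG : G = G' := funext h
  rw [hG]

private lemma ps_zero {n : ℕ} (x : Fin (n + 1) → ℝ) : ps x 0 = x 0 := by
  unfold ps
  rw [Finset.sum_filter, Fin.sum_univ_succ]
  simp [Fin.succ_ne_zero]

private lemma ps_succ {n : ℕ} (x : Fin (n + 1) → ℝ) (k : Fin n) :
    ps x (Fin.succ k) = x 0 + ps (fun i => x (Fin.succ i)) k := by
  unfold ps
  rw [Finset.sum_filter, Finset.sum_filter, Fin.sum_univ_succ]
  simp [Fin.succ_le_succ_iff]

/-- induction on `n` generalising `c` and `x`: `List.finRange_succ` (head `0`, tail = map of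
`Fin.succ`), `ps x 0 = x 0`, `ps x (Fin.succ k) = x 0 + ps (fun i => x (Fin.succ i)) k`,
`Fin.sum_univ_succ`. -/
theorem tv_ps_aux (n : ℕ) (x : Fin n → ℝ) (c : ℝ) :
    tvFrom (fun k => c + ps x k) c (List.finRange n) = l1 x := by
  induction n generalizing c with
  | zero =>
    simp [l1, tvFrom]
  | succ n ih =>
    rw [List.finRange_succ]
    simp only [tvFrom]
    rw [tvFrom_map, ps_zero]
    have h1 : ∀ k : Fin n, c + ps x (Fin.succ k)
        = (c + x 0) + ps (fun i => x (Fin.succ i)) k := by
      intro k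
      rw [ps_succ]
      ring
    rw [tvFrom_congr _ _ h1, ih (fun i => x (Fin.succ i)) (c + x 0)]
    unfold l1
    rw [Fin.sum_univ_succ]
    congr 1
    congr 1
    ring

/-- the variation of the partial sums is the `l_1` norm -/
theorem tv_ps {n : ℕ} (x : Fin n → ℝ) : tvFrom (ps x) 0 (List.finRange n) ≤ l1 x := by
  have h := tv_ps_aux n x 0
  rw [tvFrom_congr (fun k => 0 + ps x k) (ps x) (fun k => zero_add _)] at h
  exact le_of_eq h

end Vale.Agent.P125.Al
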