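import Vale.Agent.P125.Al.BVm
import Vale.Agent.P125.Al.FBasic
import Vale.Agent.P125.Al.FTv

set_option linter.unusedSectionVars false
set_option linter.unusedVariables false

namespace Vale.Agent.P125.Al

open Vale.Agent.P125.Dich
open scoped BigOperators

/-- at time one only the singleton lists matter -/
theorem E_one_congr {S M : Type} [Fintype S] [Fintype M] (C : MChain S M) (Φ1 Φ2 : List M → ℝ)
    (h : ∀ m, Φ1 [m] = Φ2 [m]) : C.E 1 Φ1 = C.E 1 Φ2 := by
  rw [E_one, E_one]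
  refine Finset.sum_congr rfl fun x _ => Finset.sum_congr rfl fun m _ =>
    Finset.sum_congr rfl fun y _ => ?_
  rw [h m]

/-- inequality (BV) for functions on ordinary chains.  Apply `bv_marks` to
`Char.backChain μ P ..` (marks `S × S`), `D.g m = ps (f m.2 - f m.1)`, `D.N m = jn (f m.2 - f m.1)`,
`D.Bd = ∑ m, D.N m`, `D.ks = List.finRange n`, `V m = l1 (f m.2 - f m.1)` (`tv_ps`);
`sm D.g l = ps (sm ω l)` (`ps_sm`), and `Char.back_valT` (general test function `G`) computes the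
three expectations. -/
theorem bv_fun {n : ℕ} {S : Type} [Fintype S] [DecidableEq S] (μ : S → ℝ) (P : Matrix S S ℝ)
    (hC : IsChain μ P) (f : S → Fin n → ℝ) (L : ℕ) :
    ∑ i, ∑ j, μ i * (P ^ (2 ^ L)) i j * jn (f j - f i) ^ 2
      ≤ (((2 : ℝ) ^ L) ^ 2 - (2 : ℝ) ^ L / 16) * ∑ i, ∑ j, μ i * P i j * jn (f j - f i) ^ 2
        + (2 : ℝ) ^ L / 4 * ((5 * ∑ i, ∑ j, μ i * P i j * jn (f j - f i) ^ 2
          + 8 / 3 * ∑ i, ∑ j, μ i * P i j * (jn (f j - f i) * l1 (f j - f i))) / ((L : ℝ) + 1)) := by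
  obtain ⟨h0, h1, h2, h3, h4⟩ := hC
  let D : Dat (S × S) (Fin n) :=
    { g := fun m => ps (f m.2 - f m.1)
      N := fun m => jn (f m.2 - f m.1)
      Bd := ∑ m : S × S, jn (f m.2 - f m.1)
      ks := List.finRange n
      hN := fun m => jn_nonneg _
      hg := fun m k => abs_ps_le_jn _ k
      hB := fun m => Finset.single_le_sum (f := fun m : S × S => jn (f m.2 - f m.1))
        (fun m _ => jn_nonneg _) (Finset.mem_univ m) }
  have hinv : ∀ m : S × S, (Char.backChain μ P h0 h1 h2 h3 h4).inv m = Prod.swap m := fun _ => rfl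
  have hsw : ∀ m : S × S, f (Prod.swap m).2 - f (Prod.swap m).1 = - (f m.2 - f m.1) := by
    intro m
    simp
  have key := bv_marks (Char.backChain μ P h0 h1 h2 h3 h4) D (fun k => List.mem_finRange k)
    (by
      intro m k
      show ps (f ((Char.backChain μ P h0 h1 h2 h3 h4).inv m).2
        - f ((Char.backChain μ P h0 h1 h2 h3 h4).inv m).1) k = - ps (f m.2 - f m.1) k
      rw [hinv, hsw, ps_neg]
      rfl)
    (by
      intro m
      show jn (f ((Char.backChain μ P h0 h1 h2 h3 h4).inv m).2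
        - f ((Char.backChain μ P h0 h1 h2 h3 h4).inv m).1) = jn (f m.2 - f m.1)
      rw [hinv, hsw, jn_neg])
    (fun m => l1 (f m.2 - f m.1)) (fun m => tv_ps _) L
  have e1 : (Char.backChain μ P h0 h1 h2 h3 h4).E (2 ^ L) (fun l => ‖sm D.g l‖ ^ 2)
      = ∑ i, ∑ j, μ i * (P ^ (2 ^ L)) i j * jn (f j - f i) ^ 2 := by
    rw [← Char.back_E μ P h0 h1 h2 h3 h4 f (2 ^ L) (fun u => jn u ^ 2)]
    congr 1
    funext l
    show ‖sm (fun m : S × S => ps (f m.2 - f m.1)) l‖ ^ 2 = _
    rw [← ps_sm (fun m : S × S => f m.2 - f m.1) l]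
    rfl
  have e2 : (Char.backChain μ P h0 h1 h2 h3 h4).E 1
        (fun l => (l.map (fun m => D.N m ^ 2)).sum)
      = ∑ i, ∑ j, μ i * P i j * jn (f j - f i) ^ 2 := by
    have := Char.back_E μ P h0 h1 h2 h3 h4 f 1 (fun u => jn u ^ 2)
    rw [pow_one] at this
    rw [← this]
    apply E_one_congr
    intro m
    simp [sm, D]
  have e3 : (Char.backChain μ P h0 h1 h2 h3 h4).E 1
        (fun l => (l.map (fun m => D.N m * l1 (f m.2 - f m.1))).sum)
      = ∑ i, ∑ j, μ i * P i j * (jn (f j - f i) * l1 (f j - f i)) := by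
    have := Char.back_E μ P h0 h1 h2 h3 h4 f 1 (fun u => jn u * l1 u)
    rw [pow_one] at this
    rw [← this]
    apply E_one_congr
    intro m
    simp [sm, D]
  rw [e1, e2, e3] at key
  exact key

end Vale.Agent.P125.Al
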