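import Vale.Agent.P125.Al.Defs

set_option linter.unusedSectionVars false
set_option linter.unusedVariables false

namespace Vale.Agent.P125.Al

open Vale.Agent.P125.Dich
open scoped BigOperators

variable {M K : Type} (D : Dat M K)

namespace Dat

theorem mn_le_Bd (l : List M) : D.mn l ≤ D.Bd := by
  induction l with
  | nil => exact le_rfl
  | cons m l ih => exact le_trans (min_le_right _ _) ih

theorem mn_append (l1 l2 : List M) : D.mn (l1 ++ l2) = min (D.mn l1) (D.mn l2) := by
  induction l1 with
  | nil =>
    show D.mn l2 = min D.Bd (D.mn l2)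
    rw [min_eq_right (D.mn_le_Bd l2)]
  | cons m l ih =>
    show min (D.N m) (D.mn (l ++ l2)) = min (min (D.N m) (D.mn l)) (D.mn l2)
    rw [ih, min_assoc]

theorem mx_nonneg (l : List M) : 0 ≤ D.mx l := by
  induction l with
  | nil => exact le_rfl
  | cons m l ih => exact le_trans ih (le_max_right _ _)

theorem mx_append (l1 l2 : List M) : D.mx (l1 ++ l2) = max (D.mx l1) (D.mx l2) := by
  induction l1 with
  | nil =>
    show D.mx l2 = max 0 (D.mx l2)
    rw [max_eq_right (D.mx_nonneg l2)]
  | cons m l ih =>
    show max (D.N m) (D.mx (l ++ l2)) = max (max (D.N m) (D.mx l)) (D.mx l2)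
    rw [ih, max_assoc]

theorem mn_le_of_mem (l : List M) (m : M) (hm : m ∈ l) : D.mn l ≤ D.N m := by
  induction l with
  | nil => exact absurd hm (List.not_mem_nil)
  | cons a l ih =>
    rcases List.mem_cons.1 hm with h | h
    · subst h
      exact min_le_left _ _
    · exact le_trans (min_le_right _ _) (ih h)

theorem le_mx_of_mem (l : List M) (m : M) (hm : m ∈ l) : D.N m ≤ D.mx l := by
  induction l with
  | nil => exact absurd hm (List.not_mem_nil)
  | cons a l ih =>
    rcases List.mem_cons.1 hm with h | h
    · subst h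
      exact le_max_left _ _
    · exact le_trans (ih h) (le_max_right _ _)

theorem exists_mn (l : List M) (hl : l ≠ []) : ∃ m ∈ l, D.N m = D.mn l := by
  induction l with
  | nil => exact absurd rfl hl
  | cons a l ih =>
    by_cases hl2 : l = []
    · subst hl2
      refine ⟨a, List.mem_cons_self, ?_⟩
      show D.N a = min (D.N a) D.Bd
      rw [min_eq_left (D.hB a)]
    · obtain ⟨m, hm, he⟩ := ih hl2
      rcases le_total (D.N a) (D.mn l) with h | h
      · refine ⟨a, List.mem_cons_self, ?_⟩
        show D.N a = min (D.N a) (D.mn l)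
        rw [min_eq_left h]
      · refine ⟨m, List.mem_cons_of_mem _ hm, ?_⟩
        show D.N m = min (D.N a) (D.mn l)
        rw [min_eq_right h, he]

theorem exists_mx (l : List M) (hl : l ≠ []) : ∃ m ∈ l, D.N m = D.mx l := by
  induction l with
  | nil => exact absurd rfl hl
  | cons a l ih =>
    by_cases hl2 : l = []
    · subst hl2
      refine ⟨a, List.mem_cons_self, ?_⟩
      show D.N a = max (D.N a) 0
      rw [max_eq_left (D.hN a)]
    · obtain ⟨m, hm, he⟩ := ih hl2
      rcases le_total (D.mx l) (D.N a) with h | h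
      · refine ⟨a, List.mem_cons_self, ?_⟩
        show D.N a = max (D.N a) (D.mx l)
        rw [max_eq_left h]
      · refine ⟨m, List.mem_cons_of_mem _ hm, ?_⟩
        show D.N m = max (D.N a) (D.mx l)
        rw [max_eq_right h, he]

theorem dA_append (l1 l2 : List M) (k : K) : D.dA (l1 ++ l2) k = D.dA l1 k + D.dA l2 k := by
  unfold dA
  rw [List.map_append, List.sum_append]

theorem dB_append (l1 l2 : List M) (k : K) : D.dB (l1 ++ l2) k = D.dB l1 k + D.dB l2 k := by
  unfold dB
  rw [List.map_append, List.sum_append]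

theorem dA_nonneg (l : List M) (k : K) : 0 ≤ D.dA l k := by
  unfold dA
  apply List.sum_nonneg
  intro x hx
  obtain ⟨m, _, rfl⟩ := List.mem_map.1 hx
  have := (abs_le.1 (D.hg m k)).2
  linarith

theorem dB_nonneg (l : List M) (k : K) : 0 ≤ D.dB l k := by
  unfold dB
  apply List.sum_nonneg
  intro x hx
  obtain ⟨m, _, rfl⟩ := List.mem_map.1 hx
  have := (abs_le.1 (D.hg m k)).1
  linarith

end Dat

end Vale.Agent.P125.Al
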