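import Vale.Agent.P125.Al.ListIneq
import Vale.Agent.P125.Al.Win

set_option linter.unusedSectionVars false
set_option linter.unusedVariables false

namespace Vale.Agent.P125.Al

open Vale.Agent.P125.Dich
open scoped BigOperators

variable {M K : Type} (D : Dat M K)

namespace Dat

theorem dA_eq_sub (l : List M) (k : K) :
    D.dA l k = (l.map D.N).sum - (l.map (fun m => D.g m k)).sum := by
  induction l with
  | nil => simp [dA]
  | cons m t ih =>
    simp only [dA, List.map_cons, List.sum_cons] at ih ⊢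
    rw [ih]; ring

theorem dB_eq_add (l : List M) (k : K) :
    D.dB l k = (l.map D.N).sum + (l.map (fun m => D.g m k)).sum := by
  induction l with
  | nil => simp [dB]
  | cons m t ih =>
    simp only [dB, List.map_cons, List.sum_cons] at ih ⊢
    rw [ih]; ring

/-- the pointwise deficit.  Notation `n = length`, `S = sum N`, `S2 = sum N^2`, `R = sum g . k`,
`a = mn l`, `b = mx l` (both attained: `exists_mn`, `exists_mx`), `|R| ≤ S`, `S^2 ≤ n S2`,
`S2 ≤ n b^2`, `n a ≤ S`, `dA l k = S - R`, `dB l k = S + R`.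
(1) `ok l`: `wq l = a^2`, `S2/16 ≤ n b^2/16 ≤ n a^2/4`, and `R^2 ≤ S^2 ≤ n S2`.
(2) not ok, `2 a < b` (this contains `a ≤ 0 < b`): `list_cs_rem`: `S^2 + n (b-a)^2/4 ≤ n S2` and
`(b-a)^2/4 ≥ b^2/16` (as `0 ≤ a`), `n b^2/16 ≥ S2/16`.
(3) `b ≤ 2a`, `a ≤ 0`: then `b = 0`, all `N = 0` on `l`, both sides vanish (`S2 = 0`, `R = 0`).
(4) `0 < a`, `b ≤ 2 a`, not ok: `S - R > a/4` and `S + R > a/4`, so `|R| < S - a/4`,
`R^2 ≤ S^2 - S a/2 + a^2/16 ≤ S^2 - S a/4` and `S a/4 ≥ n a^2/4 ≥ n b^2/16 ≥ S2/16`. -/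
theorem pw_deficit (l : List M) (hl : l ≠ []) (k : K) (hk : k ∈ D.ks) :
    ((l.map (fun m => D.g m k)).sum) ^ 2
      ≤ (l.length : ℝ) * (l.map (fun m => D.N m ^ 2)).sum
        - (l.map (fun m => D.N m ^ 2)).sum / 16 + (l.length : ℝ) / 4 * D.wq l := by
  classical
  obtain ⟨p, hp, hpa⟩ := D.exists_mn l hl
  obtain ⟨q, hq, hqb⟩ := D.exists_mx l hl
  have hdA := D.dA_eq_sub l k
  have hdB := D.dB_eq_add l k
  have hA0 := D.dA_nonneg l k
  have hB0 := D.dB_nonneg l k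
  have hcs := list_cs_rem D.N l p q hp hq
  rw [hpa, hqb] at hcs
  have hS2b : (l.map (fun m => D.N m ^ 2)).sum ≤ (l.length : ℝ) * (D.mx l) ^ 2 :=
    list_sum_le_const (fun m => D.N m ^ 2) ((D.mx l) ^ 2) l (fun m hm => by
      have h1 := D.le_mx_of_mem l m hm
      have h0 := D.hN m
      exact pow_le_pow_left₀ h0 h1 2)
  have hnaS : (l.length : ℝ) * D.mn l ≤ (l.map D.N).sum :=
    list_const_le_sum D.N (D.mn l) l (fun m hm => D.mn_le_of_mem l m hm)
  have hS2nn : 0 ≤ (l.map (fun m => D.N m ^ 2)).sum := by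
    apply List.sum_nonneg
    intro x hx
    obtain ⟨m, _, rfl⟩ := List.mem_map.mp hx
    positivity
  have ha0 : 0 ≤ D.mn l := hpa ▸ D.hN p
  have hb0 : 0 ≤ D.mx l := D.mx_nonneg l
  have hn1 : (1 : ℝ) ≤ (l.length : ℝ) := by
    have : 0 < l.length := List.length_pos_of_ne_nil hl
    exact_mod_cast this
  obtain ⟨n, hn⟩ : ∃ n : ℝ, n = (l.length : ℝ) := ⟨_, rfl⟩
  obtain ⟨S, hS⟩ : ∃ S : ℝ, S = (l.map D.N).sum := ⟨_, rfl⟩
  obtain ⟨S2, hS2⟩ : ∃ S2 : ℝ, S2 = (l.map (fun m => D.N m ^ 2)).sum := ⟨_, rfl⟩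
  obtain ⟨R, hR⟩ : ∃ R : ℝ, R = (l.map (fun m => D.g m k)).sum := ⟨_, rfl⟩
  obtain ⟨a, ha⟩ : ∃ a : ℝ, a = D.mn l := ⟨_, rfl⟩
  obtain ⟨b, hb⟩ : ∃ b : ℝ, b = D.mx l := ⟨_, rfl⟩
  rw [← hn, ← hS2, ← hR]
  rw [← hS, ← hR] at hdA hdB
  rw [← hn, ← hS, ← hS2, ← ha, ← hb] at hcs
  rw [← hn, ← hS2, ← hb] at hS2b
  rw [← hn, ← hS, ← ha] at hnaS
  rw [← hS2] at hS2nn
  rw [← ha] at ha0
  rw [← hb] at hb0
  rw [← hn] at hn1
  rw [hdA] at hA0
  rw [hdB] at hB0
  have hR2 : R ^ 2 ≤ S ^ 2 := by nlinarith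
  have hsq0 : 0 ≤ n * (b - a) ^ 2 / 4 := by positivity
  by_cases hok : D.ok l
  · have hwq : D.wq l = a ^ 2 := by simp [wq, muf, hok, ha]
    have hb2a : b ≤ 2 * a := by rw [ha, hb]; exact hok.2.1
    rw [hwq]
    have h4 : b ^ 2 ≤ 4 * a ^ 2 := by nlinarith
    have h5 : n * b ^ 2 ≤ n * (4 * a ^ 2) := mul_le_mul_of_nonneg_left h4 (by linarith)
    nlinarith
  · have hwq : D.wq l = 0 := by simp [wq, muf, hok]
    rw [hwq]
    by_cases h2 : 2 * a < b
    · have h3 : b ^ 2 / 16 ≤ (b - a) ^ 2 / 4 := by nlinarith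
      have h4 : n * (b ^ 2 / 16) ≤ n * ((b - a) ^ 2 / 4) :=
        mul_le_mul_of_nonneg_left h3 (by linarith)
      nlinarith
    · have h2' : b ≤ 2 * a := not_lt.mp h2
      rcases ha0.eq_or_lt with h0 | h0
      · have hbz : b = 0 := le_antisymm (by linarith) hb0
        have hS2z : S2 ≤ 0 := by rw [hbz] at hS2b; simpa using hS2b
        have hS2e : S2 = 0 := le_antisymm hS2z hS2nn
        rw [hS2e] at hcs ⊢
        nlinarith
      · have hA : a / 4 < S - R := by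
          by_contra h
          have h := not_lt.mp h
          refine hok ⟨by rw [← ha]; exact h0, by rw [← ha, ← hb]; exact h2', k, hk, Or.inl ?_⟩
          show D.dA l k ≤ D.mn l / 4
          rw [hdA, ← ha]; exact h
        have hB : a / 4 < S + R := by
          by_contra h
          have h := not_lt.mp h
          refine hok ⟨by rw [← ha]; exact h0, by rw [← ha, ← hb]; exact h2', k, hk, Or.inr ?_⟩
          show D.dB l k ≤ D.mn l / 4
          rw [hdB, ← ha]; exact h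
        have haS : a ≤ S := by nlinarith
        have hR2' : R ^ 2 ≤ (S - a / 4) ^ 2 := by
          apply sq_le_sq'
          · linarith
          · linarith
        have h4 : b ^ 2 ≤ 4 * a ^ 2 := by nlinarith
        have h5 : n * b ^ 2 ≤ n * (4 * a ^ 2) := mul_le_mul_of_nonneg_left h4 (by linarith)
        have h6 : n * a * a ≤ S * a := mul_le_mul_of_nonneg_right hnaS h0.le
        have h7 : a * a ≤ S * a := mul_le_mul_of_nonneg_right haS h0.le
        have h8 : (S - a / 4) ^ 2 = S ^ 2 - S * a / 2 + a * a / 16 := by ring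
        have h9 : n * (4 * a ^ 2) = 4 * (n * a * a) := by ring
        rw [h8] at hR2'
        rw [h9] at h5
        linarith

end Dat

end Vale.Agent.P125.Al
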