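import Vale.Agent.P125.Al.DpLe
import Vale.Agent.P125.Al.Win

set_option linter.unusedSectionVars false
set_option linter.unusedVariables false

namespace Vale.Agent.P125.Al

open Vale.Agent.P125.Dich
open scoped BigOperators

variable {M K : Type} (D : Dat M K)

namespace Dat

/-- `mn [m] = min (N m) Bd = N m` -/
theorem mn_single (m : M) : D.mn [m] = D.N m := by
  show min (D.N m) D.Bd = D.N m
  exact min_eq_left (D.hB m)

theorem wq_single (m : M) : D.wq [m] ≤ D.N m ^ 2 := by
  unfold wq muf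
  split_ifs with h
  · rw [mn_single]
  · have := sq_nonneg (D.N m)
    simpa using this

/-- if `ok [m]`: `mn [m] = N m > 0`, `SA [m] k` means `g m k ≥ h := 3/4 N m`, `SB [m] k` means
`g m k ≤ -h`; `dp_le`: `h (pa + pb) ≤ 2 h + V`; multiply by `N m ^ 2 / h = 4/3 N m`. -/
theorem ph_single (m : M) (V : ℝ) (hV : tvFrom (D.g m) 0 D.ks ≤ V) :
    D.ph [m] ≤ 2 * D.N m ^ 2 + 4 / 3 * (D.N m * V) := by
  have hN0 := D.hN m
  have hV0 : 0 ≤ V := le_trans (tvFrom_nonneg (D.g m) 0 D.ks) hV
  by_cases hok : D.ok [m]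
  · have hpos : 0 < D.N m := by
      have := hok.1
      rwa [mn_single] at this
    have hh : 0 < 3 / 4 * D.N m := by positivity
    have hA : ∀ k, D.SA [m] k → 3 / 4 * D.N m ≤ D.g m k := by
      intro k hk
      have h1 : D.dA [m] k ≤ D.mn [m] / 4 := hk
      rw [mn_single] at h1
      have h2 : D.dA [m] k = D.N m - D.g m k := by
        simp [dA]
      rw [h2] at h1
      linarith
    have hB : ∀ k, D.SB [m] k → D.g m k ≤ -(3 / 4 * D.N m) := by
      intro k hk
      have h1 : D.dB [m] k ≤ D.mn [m] / 4 := hk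
      rw [mn_single] at h1
      have h2 : D.dB [m] k = D.N m + D.g m k := by
        simp [dB]
      rw [h2] at h1
      linarith
    have key := dp_le (D.SA [m]) (D.SB [m]) (D.g m) (3 / 4 * D.N m) hh hA hB D.ks
    have hc : 3 / 4 * D.N m * D.cpot [m] ≤ 2 * (3 / 4 * D.N m) + V := by
      have : D.cpot [m] = (((dp (D.SA [m]) (D.SB [m]) D.ks).1 : ℝ)
          + ((dp (D.SA [m]) (D.SB [m]) D.ks).2 : ℝ)) := rfl
      rw [this]
      linarith
    have hw : D.wq [m] = D.N m ^ 2 := by
      unfold wq muf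
      rw [if_pos hok, mn_single]
    unfold ph
    rw [hw]
    have h3 := mul_le_mul_of_nonneg_left hc (by positivity : (0 : ℝ) ≤ 4 / 3 * D.N m)
    nlinarith [h3]
  · have hw : D.wq [m] = 0 := by
      unfold wq muf
      rw [if_neg hok]
      simp
    unfold ph
    rw [hw, zero_mul]
    positivity

end Dat

end Vale.Agent.P125.Al
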