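import Vale.Agent.P125.Al.Rec
import Vale.Agent.P125.Al.PwDef
import Vale.Agent.P125.Al.Single

set_option linter.unusedSectionVars false
set_option linter.unusedVariables false

namespace Vale.Agent.P125.Al

open Vale.Agent.P125.Dich
open scoped BigOperators

variable {S M K : Type} [Fintype S] [Fintype M] [Fintype K] (C : MChain S M) (D : Dat M K)

private lemma sm_apply_aux (g : M → K → ℝ) (l : List M) (k : K) :
    (sm g l) k = (l.map (fun m => g m k)).sum := by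
  induction l with
  | nil => simp [sm]
  | cons m l ih =>
    rw [sm_cons, Pi.add_apply, ih]
    simp

private lemma s2_nonneg_aux (N : M → ℝ) (l : List M) : 0 ≤ (l.map (fun m => N m ^ 2)).sum := by
  apply List.sum_nonneg
  intro x hx
  obtain ⟨y, _, rfl⟩ := List.mem_map.1 hx
  positivity

private lemma norm_sq_le_aux (hks : ∀ k, k ∈ D.ks) (l : List M) (hl : l ≠ []) :
    ‖sm D.g l‖ ^ 2 ≤ (l.length : ℝ) * (l.map (fun m => D.N m ^ 2)).sum
        - (l.map (fun m => D.N m ^ 2)).sum / 16 + (l.length : ℝ) / 4 * D.wq l := by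
  set Bq : ℝ := (l.length : ℝ) * (l.map (fun m => D.N m ^ 2)).sum
        - (l.map (fun m => D.N m ^ 2)).sum / 16 + (l.length : ℝ) / 4 * D.wq l with hBq
  have hlen : (1 : ℝ) ≤ (l.length : ℝ) := by
    have : 1 ≤ l.length := List.length_pos_iff.2 hl
    exact_mod_cast this
  have hs2 := s2_nonneg_aux D.N l
  have hwq := D.wq_nonneg l
  have hB0 : 0 ≤ Bq := by
    have h1 : 0 ≤ (l.length : ℝ) / 4 * D.wq l := by positivity
    have h2 : (l.map (fun m => D.N m ^ 2)).sum ≤ (l.length : ℝ) * (l.map (fun m => D.N m ^ 2)).sum := by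
      nlinarith
    rw [hBq]
    linarith
  have hn : ‖sm D.g l‖ ≤ Real.sqrt Bq := by
    rw [pi_norm_le_iff_of_nonneg (Real.sqrt_nonneg _)]
    intro k
    rw [Real.norm_eq_abs]
    apply Real.abs_le_sqrt
    rw [sm_apply_aux]
    exact D.pw_deficit l hl k (hks k)
  calc ‖sm D.g l‖ ^ 2 ≤ (Real.sqrt Bq) ^ 2 := pow_le_pow_left₀ (norm_nonneg _) hn 2
    _ = Bq := Real.sq_sqrt hB0

/-- inequality (BV) of board 485 for marked chains -/
theorem bv_marks (hks : ∀ k, k ∈ D.ks) (h1 : ∀ m k, D.g (C.inv m) k = - D.g m k)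
    (h2 : ∀ m, D.N (C.inv m) = D.N m) (V : M → ℝ) (hV : ∀ m, tvFrom (D.g m) 0 D.ks ≤ V m)
    (L : ℕ) :
    C.E (2 ^ L) (fun l => ‖sm D.g l‖ ^ 2)
      ≤ (((2 : ℝ) ^ L) ^ 2 - (2 : ℝ) ^ L / 16) * C.E 1 (fun l => (l.map (fun m => D.N m ^ 2)).sum)
        + (2 : ℝ) ^ L / 4 * ((5 * C.E 1 (fun l => (l.map (fun m => D.N m ^ 2)).sum)
          + 8 / 3 * C.E 1 (fun l => (l.map (fun m => D.N m * V m)).sum)) / ((L : ℝ) + 1)) := by
  set EN2 := C.E 1 (fun l => (l.map (fun m => D.N m ^ 2)).sum) with hEN2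
  set ENV := C.E 1 (fun l => (l.map (fun m => D.N m * V m)).sum) with hENV
  have hpw : ∀ l : List M, l.length = 2 ^ L →
      ‖sm D.g l‖ ^ 2 ≤ ((2 : ℝ) ^ L - 1 / 16) * (l.map (fun m => D.N m ^ 2)).sum
        + ((2 : ℝ) ^ L / 4) * D.wq l := by
    intro l hl
    have hne : l ≠ [] := by
      intro h
      rw [h] at hl
      simp at hl
      have : 0 < 2 ^ L := Nat.pos_of_ne_zero (by positivity)
      omega
    have := norm_sq_le_aux D hks l hne
    rw [hl] at this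
    push_cast at this
    linarith
  have hE := E_mono C (2 ^ L) _ _ hpw
  rw [E_add, E_const_mul, E_const_mul,
    Vale.Agent.P125.Char.E_sum_marks C (fun m => D.N m ^ 2) (2 ^ L)] at hE
  have hQ := Q_bound C D h1 h2 L
  have hP1 : C.E 1 D.ph ≤ 2 * EN2 + 4 / 3 * ENV := by
    have hp : ∀ l : List M, l.length = 1 →
        D.ph l ≤ 2 * (l.map (fun m => D.N m ^ 2)).sum
          + 4 / 3 * (l.map (fun m => D.N m * V m)).sum := by
      intro l hl
      obtain ⟨m, rfl⟩ := List.length_eq_one_iff.1 hl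
      have := D.ph_single m (V m) (hV m)
      simpa using this
    have := E_mono C 1 _ _ hp
    rwa [E_add, E_const_mul, E_const_mul] at this
  have hQ1 : C.E 1 D.wq ≤ EN2 := by
    have hp : ∀ l : List M, l.length = 1 → D.wq l ≤ (l.map (fun m => D.N m ^ 2)).sum := by
      intro l hl
      obtain ⟨m, rfl⟩ := List.length_eq_one_iff.1 hl
      have := D.wq_single m
      simpa using this
    exact E_mono C 1 _ _ hp
  have hL : (0 : ℝ) < (L : ℝ) + 1 := by positivity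
  have hQM : C.E (2 ^ L) D.wq ≤ (5 * EN2 + 8 / 3 * ENV) / ((L : ℝ) + 1) := by
    rw [le_div_iff₀ hL]
    linarith
  have hM : (0 : ℝ) < (2 : ℝ) ^ L / 4 := by positivity
  have h3 := mul_le_mul_of_nonneg_left hQM hM.le
  push_cast at hE
  calc C.E (2 ^ L) (fun l => ‖sm D.g l‖ ^ 2)
      ≤ ((2 : ℝ) ^ L - 1 / 16) * ((2 : ℝ) ^ L * EN2) + (2 : ℝ) ^ L / 4 * C.E (2 ^ L) D.wq := hE
    _ ≤ ((2 : ℝ) ^ L - 1 / 16) * ((2 : ℝ) ^ L * EN2)
        + (2 : ℝ) ^ L / 4 * ((5 * EN2 + 8 / 3 * ENV) / ((L : ℝ) + 1)) := by linarith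
    _ = _ := by ring

end Vale.Agent.P125.Al
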