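import Vale.Agent.P125.Dich.ApiB
import Vale.Agent.P125.Char.Conv_A
import Vale.Agent.P125.Char.Back2

set_option linter.unusedSectionVars false
set_option linter.unusedVariables false

/-!
# P125, project (alpha): the summing operators are uniformly sub-ballistic (definitions)

Pen proof: board 485 (helper56).  `g m k` = value at the index `k` of the partial sum function of
the mark `m`, `N m` = its sup norm.  For a window (list of marks) `l`:
`dA l k = sum (N - g . k)`, `dB l k = sum (N + g . k)` are the deficiencies of the index `k`,
`SA l`, `SB l` the sets of indices of deficiency at most `mn l / 4`.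
`dp A B ks` = lengths of the longest alternating subsequences of the list of indices `ks`
(first letter in `A`, resp. in `B`).
-/

namespace Vale.Agent.P125.Al

open Vale.Agent.P125.Dich
open scoped BigOperators

open Classical in
/-- lengths of the longest alternating subsequences of `ks` starting in `A`, resp. in `B` -/
noncomputable def dp {K : Type} (A B : K → Prop) : List K → ℕ × ℕ
  | [] => (0, 0)
  | k :: t =>
      (if A k then max (dp A B t).1 ((dp A B t).2 + 1) else (dp A B t).1,
       if B k then max (dp A B t).2 ((dp A B t).1 + 1) else (dp A B t).2)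

/-- total variation of `G` along the list `ks`, started from the value `c` -/
def tvFrom {K : Type} (G : K → ℝ) : ℝ → List K → ℝ
  | _, [] => 0
  | c, k :: t => |G k - c| + tvFrom G (G k) t

/-- the data: functions `g m` on the indices, bounds `N m`, a global bound `Bd`, the list of all
indices in increasing order -/
structure Dat (M K : Type) where
  g : M → K → ℝ
  N : M → ℝ
  Bd : ℝ
  ks : List K
  hN : ∀ m, 0 ≤ N m
  hg : ∀ m k, |g m k| ≤ N m
  hB : ∀ m, N m ≤ Bd

variable {M K : Type}

namespace Dat

variable (D : Dat M K)

/-- minimum of `N` over the window (and `Bd`) -/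
def mn : List M → ℝ
  | [] => D.Bd
  | m :: l => min (D.N m) (mn l)

/-- maximum of `N` over the window (and `0`) -/
def mx : List M → ℝ
  | [] => 0
  | m :: l => max (D.N m) (mx l)

def dA (l : List M) (k : K) : ℝ := (l.map (fun m => D.N m - D.g m k)).sum

def dB (l : List M) (k : K) : ℝ := (l.map (fun m => D.N m + D.g m k)).sum

def SA (l : List M) : K → Prop := fun k => D.dA l k ≤ D.mn l / 4

def SB (l : List M) : K → Prop := fun k => D.dB l k ≤ D.mn l / 4

def ok (l : List M) : Prop :=
  0 < D.mn l ∧ D.mx l ≤ 2 * D.mn l ∧ ∃ k ∈ D.ks, D.SA l k ∨ D.SB l k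

noncomputable def pa (l : List M) : ℕ := (dp (D.SA l) (D.SB l) D.ks).1

noncomputable def pb (l : List M) : ℕ := (dp (D.SA l) (D.SB l) D.ks).2

/-- the potential -/
noncomputable def cpot (l : List M) : ℝ := (D.pa l : ℝ) + (D.pb l : ℝ)

/-- the direction -/
noncomputable def sg (l : List M) : ℝ :=
  if D.pb l < D.pa l then 1 else if D.pa l < D.pb l then -1 else 0

open Classical in
noncomputable def muf (l : List M) : ℝ := if D.ok l then D.mn l else 0

noncomputable def wq (l : List M) : ℝ := D.muf l ^ 2

noncomputable def ph (l : List M) : ℝ := D.wq l * D.cpot l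

noncomputable def psi (l : List M) : ℝ := D.muf l * D.sg l

end Dat

end Vale.Agent.P125.Al
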