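import Vale.Agent.P125.Al.Defs

set_option linter.unusedSectionVars false
set_option linter.unusedVariables false

namespace Vale.Agent.P125.Al

open Vale.Agent.P125.Dich
open scoped BigOperators

/-- monotonicity of the alternation lengths (induction on the list) -/
theorem dp_mono {K : Type} (A B A' B' : K → Prop) (hA : ∀ k, A' k → A k) (hB : ∀ k, B' k → B k)
    (t : List K) :
    (dp A' B' t).1 ≤ (dp A B t).1 ∧ (dp A' B' t).2 ≤ (dp A B t).2 := by
  induction t with
  | nil => simp [dp]
  | cons k t ih =>
    obtain ⟨ih1, ih2⟩ := ih
    simp only [dp]
    constructor
    · by_cases h' : A' k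
      · have h := hA k h'
        rw [if_pos h', if_pos h]
        omega
      · rw [if_neg h']
        by_cases h : A k
        · rw [if_pos h]
          omega
        · rw [if_neg h]
          exact ih1
    · by_cases h' : B' k
      · have h := hB k h'
        rw [if_pos h', if_pos h]
        omega
      · rw [if_neg h']
        by_cases h : B k
        · rw [if_pos h]
          omega
        · rw [if_neg h]
          exact ih2

/-- exchanging the two sets exchanges the two lengths (induction on the list) -/
theorem dp_swap {K : Type} (A B : K → Prop) (t : List K) :
    dp B A t = ((dp A B t).2, (dp A B t).1) := by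
  induction t with
  | nil => simp [dp]
  | cons k t ih =>
    simp only [dp]
    rw [ih]

/-- if `A`, `B` are disjoint and some index of the list lies in one of them, the two lengths
differ.  Induction on the list: if `A k` (so not `B k`) the new first length is at least the old
second length plus one, and the second length is unchanged; symmetric if `B k`; otherwise nothing
changes and the induction hypothesis applies. -/
theorem dp_ne {K : Type} (A B : K → Prop) (hd : ∀ k, ¬ (A k ∧ B k)) (t : List K)
    (hex : ∃ k ∈ t, A k ∨ B k) : (dp A B t).1 ≠ (dp A B t).2 := by
  induction t with
  | nil =>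
    obtain ⟨k, hk, _⟩ := hex
    simp at hk
  | cons k t ih =>
    simp only [dp]
    by_cases hAk : A k
    · have hBk : ¬ B k := fun h => hd k ⟨hAk, h⟩
      rw [if_pos hAk, if_neg hBk]
      omega
    · by_cases hBk : B k
      · rw [if_neg hAk, if_pos hBk]
        omega
      · rw [if_neg hAk, if_neg hBk]
        apply ih
        obtain ⟨k', hk', h'⟩ := hex
        rcases List.mem_cons.1 hk' with rfl | hk''
        · rcases h' with h' | h'
          · exact absurd h' hAk
          · exact absurd h' hBk
        · exact ⟨k', hk'', h'⟩

end Vale.Agent.P125.Al
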