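import Vale.Agent.P125.Al.DpVar

set_option linter.unusedSectionVars false
set_option linter.unusedVariables false

namespace Vale.Agent.P125.Al

open Vale.Agent.P125.Dich
open scoped BigOperators

/-- from `dp_var` with `c = 0`: each length is at most `1 + V / (2 h)` -/
theorem dp_le {K : Type} (A B : K → Prop) (G : K → ℝ) (h : ℝ) (hh : 0 < h)
    (hA : ∀ k, A k → h ≤ G k) (hB : ∀ k, B k → G k ≤ -h) (t : List K) :
    h * (((dp A B t).1 : ℝ) + ((dp A B t).2 : ℝ)) ≤ 2 * h + tvFrom G 0 t := by
  have hv := dp_var A B G h hh hA hB t 0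
  have h0 := tvFrom_nonneg G 0 t
  have h1 : 2 * h * ((dp A B t).1 : ℝ) ≤ h + tvFrom G 0 t := by
    rcases Nat.eq_zero_or_pos (dp A B t).1 with hz | hp
    · rw [hz]
      simp only [Nat.cast_zero, mul_zero]
      linarith
    · have := hv.1 hp
      linarith
  have h2 : 2 * h * ((dp A B t).2 : ℝ) ≤ h + tvFrom G 0 t := by
    rcases Nat.eq_zero_or_pos (dp A B t).2 with hz | hp
    · rw [hz]
      simp only [Nat.cast_zero, mul_zero]
      linarith
    · have := hv.2 hp
      linarith
  linarith

end Vale.Agent.P125.Al
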