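import Vale.Agent.P125.Al.Defs

set_option linter.unusedSectionVars false
set_option linter.unusedVariables false

namespace Vale.Agent.P125.Al

open Vale.Agent.P125.Dich
open scoped BigOperators

theorem tvFrom_nonneg {K : Type} (G : K → ℝ) (c : ℝ) (t : List K) : 0 ≤ tvFrom G c t := by
  induction t generalizing c with
  | nil => exact le_refl _
  | cons k t ih =>
    show 0 ≤ |G k - c| + tvFrom G (G k) t
    exact add_nonneg (abs_nonneg _) (ih (G k))

private theorem dp_var_aux (h Gk c tv : ℝ) (p q : ℕ) (hh : 0 < h) (htv : 0 ≤ tv)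
    (ih1 : 1 ≤ p → 2 * h * ((p : ℝ) - 1) + (h - Gk) ≤ tv)
    (ih2 : 1 ≤ q → 2 * h * ((q : ℝ) - 1) + (h + Gk) ≤ tv) :
    (1 ≤ p → 2 * h * ((p : ℝ) - 1) + (h - c) ≤ |Gk - c| + tv) ∧
    (h ≤ Gk → 2 * h * (((q + 1 : ℕ) : ℝ) - 1) + (h - c) ≤ |Gk - c| + tv) := by
  have h1 : Gk - c ≤ |Gk - c| := le_abs_self _
  constructor
  · intro hp
    have := ih1 hp
    linarith
  · intro hG
    push_cast
    rcases Nat.eq_zero_or_pos q with hq | hq
    · subst hq
      simp only [Nat.cast_zero]
      linarith
    · have := ih2 hq
      linarith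

/-- each alternation costs `2 h` of variation.  Induction on `t` generalising `c`:
`tvFrom G c (k :: t) = |G k - c| + tvFrom G (G k) t`; the new first length is the old one (use the
induction hypothesis at `c' = G k` and `G k - c ≤ |G k - c|`) or the old second length plus one
with `A k`, i.e. `h ≤ G k` (use the second half of the hypothesis at `c' = G k` and
`2 h - G k - c ≤ G k - c`; if the old second length is `0` use `h - c ≤ G k - c`). -/
theorem dp_var {K : Type} (A B : K → Prop) (G : K → ℝ) (h : ℝ) (hh : 0 < h)
    (hA : ∀ k, A k → h ≤ G k) (hB : ∀ k, B k → G k ≤ -h) (t : List K) (c : ℝ) :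
    (1 ≤ (dp A B t).1 → 2 * h * (((dp A B t).1 : ℝ) - 1) + (h - c) ≤ tvFrom G c t) ∧
    (1 ≤ (dp A B t).2 → 2 * h * (((dp A B t).2 : ℝ) - 1) + (h + c) ≤ tvFrom G c t) := by
  classical
  induction t generalizing c with
  | nil =>
    constructor
    · intro h1
      simp [dp] at h1
    · intro h1
      simp [dp] at h1
  | cons k t ih =>
    obtain ⟨ih1, ih2⟩ := ih (G k)
    have htv := tvFrom_nonneg G (G k) t
    have e0 : tvFrom G c (k :: t) = |G k - c| + tvFrom G (G k) t := rfl
    rw [e0]
    obtain ⟨a1, a2⟩ := dp_var_aux h (G k) c (tvFrom G (G k) t) (dp A B t).1 (dp A B t).2 hh htv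
      ih1 ih2
    obtain ⟨b1, b2⟩ := dp_var_aux h (- G k) (- c) (tvFrom G (G k) t) (dp A B t).2 (dp A B t).1 hh htv
      (by intro hq; have := ih2 hq; linarith) (by intro hp; have := ih1 hp; linarith)
    have eabs : |(- G k) - (- c)| = |G k - c| := by
      rw [← abs_neg]
      congr 1
      ring
    rw [eabs] at b1 b2
    constructor
    · have e1 : (dp A B (k :: t)).1 =
          if A k then max (dp A B t).1 ((dp A B t).2 + 1) else (dp A B t).1 := by
        simp only [dp]
      rw [e1]
      split_ifs with hk
      · rcases max_choice (dp A B t).1 ((dp A B t).2 + 1) with hm | hm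
        · rw [hm]
          exact a1
        · rw [hm]
          intro _
          exact a2 (hA k hk)
      · exact a1
    · have e1 : (dp A B (k :: t)).2 =
          if B k then max (dp A B t).2 ((dp A B t).1 + 1) else (dp A B t).2 := by
        simp only [dp]
      rw [e1]
      split_ifs with hk
      · rcases max_choice (dp A B t).2 ((dp A B t).1 + 1) with hm | hm
        · rw [hm]
          intro hq
          have := b1 hq
          linarith
        · rw [hm]
          intro _
          have := b2 (by have := hB k hk; linarith)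
          linarith
      · intro hq
        have := b1 hq
        linarith

end Vale.Agent.P125.Al
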