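import Vale.Agent.P125.Al.Defs

set_option linter.unusedSectionVars false
set_option linter.unusedVariables false

namespace Vale.Agent.P125.Al

open Vale.Agent.P125.Dich
open scoped BigOperators

/-- partial sums of a vector -/
def ps {n : ℕ} (x : Fin n → ℝ) : Fin n → ℝ :=
  fun k => ∑ i ∈ Finset.univ.filter (fun i => i ≤ k), x i

/-- the summing norm: the largest absolute value of a partial sum -/
noncomputable def jn {n : ℕ} (x : Fin n → ℝ) : ℝ := ‖ps x‖

/-- the `l_1` norm -/
def l1 {n : ℕ} (x : Fin n → ℝ) : ℝ := ∑ i, |x i|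

/-- the operator inequality at time `t` with constant `a`, uniformly in the dimension `n` -/
def HOp (t : ℕ) (a : ℝ) : Prop :=
  ∀ (n : ℕ) (S : Type) [Fintype S] [DecidableEq S] (μ : S → ℝ) (P : Matrix S S ℝ), IsChain μ P →
    ∀ f : S → Fin n → ℝ,
      ∑ i, ∑ j, μ i * (P ^ t) i j * jn (f j - f i) ^ 2 ≤
        a * (t : ℝ) ^ 2 * ∑ i, ∑ j, μ i * P i j * l1 (f j - f i) ^ 2

end Vale.Agent.P125.Al
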