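import Vale.Agent.P125.Al.Step

set_option linter.unusedSectionVars false
set_option linter.unusedVariables false

namespace Vale.Agent.P125.Al

open Vale.Agent.P125.Dich
open scoped BigOperators

/-- iterate `hop_step` with a fixed `L` (`64/ε ≤ L+1`), `δ = 1/(32 * 2^L)`: by induction on `j`
there is `t ≥ 1` with `HOp t (max ε ((1-δ)^j))`; then take `j` with `(1-δ)^j ≤ ε`
(`exists_pow_lt_of_lt_one`). -/
theorem alpha_final (ε : ℝ) (hε : 0 < ε) : ∃ t : ℕ, 1 ≤ t ∧ HOp t ε := by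
  by_cases h1 : 1 ≤ ε
  · exact ⟨1, le_rfl, hop_mono 1 1 ε h1 hop_one⟩
  have hε1 : ε < 1 := not_le.1 h1
  obtain ⟨L, hL⟩ := exists_nat_ge (64 / ε)
  have hL' : 64 / ε ≤ (L : ℝ) + 1 := by linarith
  set δ : ℝ := 1 / (32 * (2 : ℝ) ^ L) with hδ
  have hp : (1 : ℝ) ≤ (2 : ℝ) ^ L := one_le_pow₀ (by norm_num)
  have hδ0 : 0 < δ := by rw [hδ]; positivity
  have hδ1 : δ < 1 := by
    rw [hδ, div_lt_one (by positivity)]
    linarith
  have key : ∀ j : ℕ, ∃ t : ℕ, 1 ≤ t ∧ HOp t (max ε ((1 - δ) ^ j)) := by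
    intro j
    induction j with
    | zero =>
      refine ⟨1, le_rfl, ?_⟩
      rw [pow_zero, max_eq_right hε1.le]
      exact hop_one
    | succ j ih =>
      obtain ⟨t, ht, hH⟩ := ih
      have ha1 : max ε ((1 - δ) ^ j) ≤ 1 :=
        max_le hε1.le (pow_le_one₀ (by linarith) (by linarith))
      have hs := hop_step t L (max ε ((1 - δ) ^ j)) ε hH hε (le_max_left _ _) ha1 hL'
      refine ⟨2 ^ L * t, ?_, ?_⟩
      · exact Nat.one_le_iff_ne_zero.2 (by positivity)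
      · apply hop_mono _ _ _ _ hs
        rw [← hδ, max_mul_of_nonneg _ _ (by linarith : (0 : ℝ) ≤ 1 - δ), ← pow_succ]
        apply max_le_max _ le_rfl
        nlinarith
  obtain ⟨j, hj⟩ := exists_pow_lt_of_lt_one hε (by linarith : 1 - δ < 1)
  obtain ⟨t, ht, hH⟩ := key j
  rw [max_eq_left hj.le] at hH
  exact ⟨t, ht, hH⟩

end Vale.Agent.P125.Al
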