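import Vale.Agent.P125.Al.Defs
import Vale.Agent.P125.Alpha.Iid

set_option linter.unusedSectionVars false
set_option linter.unusedVariables false

namespace Vale.Agent.P125.Al

open Vale.Agent.P125.Dich
open scoped BigOperators

variable {S M : Type} [Fintype S] [Fintype M]

/-- given the middle state, the second half and the reversed first half are iid.
Unfold `MChain.E`; `valT_append`: the left side is
`∑ x, μ x * valT a (fun l1 z => ψ l1 * h z) x` with `h z = valT a (fun l2 _ => ψ l2) z`
(`valT_congr` with `List.take_left`, `List.drop_left`, then `valT_const_mul`);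
`rev_identity C a ψ (fun _ => 1) h` turns it into `∑ z, μ z * h z * valT a (fun l _ => ψ (rev l)) z
= - ∑ z, μ z * h z ^ 2`. -/
theorem iid_step (C : MChain S M) (a : ℕ) (ψ : List M → ℝ)
    (hψ : ∀ l, ψ ((l.map C.inv).reverse) = - ψ l) :
    C.E (a + a) (fun l => ψ (l.take a) * ψ (l.drop a)) ≤ 0 :=
  Vale.Agent.P125.Alpha.E_iid_antisymm C a ψ hψ

end Vale.Agent.P125.Al
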