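import Vale.Agent.P125.Al.FDefs
import Vale.Agent.P125.TS.Triv

set_option linter.unusedSectionVars false
set_option linter.unusedVariables false

namespace Vale.Agent.P125.Al

open Vale.Agent.P125.Dich
open scoped BigOperators

private theorem l1_eq_norm {n : ℕ} (x y : Fin n → ℝ) :
    l1 (y - x) = ‖(WithLp.toLp 1 y : PiLp 1 (fun _ : Fin n => ℝ)) - WithLp.toLp 1 x‖ := by
  rw [PiLp.norm_eq_of_L1]
  simp [l1, Real.norm_eq_abs]

/-- the trivial bound for the `l_1` norm: `TS.hFun_triv (PiLp 1 (fun _ : Fin n => ℝ)) t` applied to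
`f` composed with `WithLp.toLp 1` (norm of `PiLp 1` = sum of the absolute values), or directly. -/
theorem l1_triv {n : ℕ} {S : Type} [Fintype S] [DecidableEq S] (μ : S → ℝ) (P : Matrix S S ℝ)
    (hC : IsChain μ P) (f : S → Fin n → ℝ) (t : ℕ) :
    ∑ i, ∑ j, μ i * (P ^ t) i j * l1 (f j - f i) ^ 2
      ≤ (t : ℝ) ^ 2 * ∑ i, ∑ j, μ i * P i j * l1 (f j - f i) ^ 2 := by
  have key := TS.hFun_triv (PiLp 1 (fun _ : Fin n => ℝ)) t S μ P hC
    (fun s => (WithLp.toLp 1 (f s) : PiLp 1 (fun _ : Fin n => ℝ)))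
  simp only [← l1_eq_norm] at key
  exact key

end Vale.Agent.P125.Al
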