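import Vale.Agent.P125.Al.Defs

set_option linter.unusedSectionVars false
set_option linter.unusedVariables false

namespace Vale.Agent.P125.Al

open Vale.Agent.P125.Dich
open scoped BigOperators

variable {M : Type}

/-- expand the square, induction on the list -/
theorem list_shift (N : M → ℝ) (c : ℝ) (l : List M) :
    (l.map (fun m => (N m - c) ^ 2)).sum
      = (l.map (fun m => N m ^ 2)).sum - 2 * c * (l.map N).sum + (l.length : ℝ) * c ^ 2 := by
  induction l with
  | nil => simp
  | cons a t ih =>
    simp only [List.map_cons, List.sum_cons, List.length_cons, Nat.cast_add, Nat.cast_one]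
    rw [ih]
    ring

theorem list_term_le (F : M → ℝ) (hF : ∀ m, 0 ≤ F m) (l : List M) (p : M) (hp : p ∈ l) :
    F p ≤ (l.map F).sum := by
  induction l with
  | nil => exact absurd hp (List.not_mem_nil)
  | cons a t ih =>
    have hs : 0 ≤ (t.map F).sum := by
      apply List.sum_nonneg
      intro x hx
      obtain ⟨m, _, rfl⟩ := List.mem_map.1 hx
      exact hF m
    simp only [List.map_cons, List.sum_cons]
    rcases List.mem_cons.1 hp with h | h
    · rw [h]
      linarith
    · have := ih h
      have := hF a
      linarith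

/-- Cauchy-Schwarz with a remainder: with `c = S / length`, `list_shift` gives
`length * S2 - S^2 = length * sum (N - c)^2`, which is at least `length * (N p - c)^2` and
`length * (N q - c)^2`, and `max (x^2) (y^2) ≥ ((x - y)/2)^2`. -/
theorem list_cs_rem (N : M → ℝ) (l : List M) (p q : M) (hp : p ∈ l) (hq : q ∈ l) :
    ((l.map N).sum) ^ 2 + (l.length : ℝ) * (N q - N p) ^ 2 / 4
      ≤ (l.length : ℝ) * (l.map (fun m => N m ^ 2)).sum := by
  have hlen : 0 < (l.length : ℝ) := by
    have : 0 < l.length := List.length_pos_of_mem hp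
    exact_mod_cast this
  set n : ℝ := (l.length : ℝ) with hn
  set S : ℝ := (l.map N).sum with hS
  set S2 : ℝ := (l.map (fun m => N m ^ 2)).sum with hS2
  set c : ℝ := S / n with hc
  have hsh := list_shift N c l
  rw [← hS2, ← hS, ← hn] at hsh
  have hp' := list_term_le (fun m => (N m - c) ^ 2) (fun m => sq_nonneg _) l p hp
  have hq' := list_term_le (fun m => (N m - c) ^ 2) (fun m => sq_nonneg _) l q hq
  rw [hsh] at hp' hq'
  have hcn : c * n = S := by
    rw [hc]
    field_simp
  -- `T = S2 - 2 c S + n c^2 = S2 - S^2 / n`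
  have hT : n * (S2 - 2 * c * S + n * c ^ 2) = n * S2 - S ^ 2 := by
    have : n * (S2 - 2 * c * S + n * c ^ 2) = n * S2 - 2 * (c * n) * S + (c * n) ^ 2 := by ring
    rw [this, hcn]
    ring
  have hmax : (N q - N p) ^ 2 / 4 ≤ S2 - 2 * c * S + n * c ^ 2 := by
    nlinarith [sq_nonneg ((N q - c) + (N p - c))]
  have := mul_le_mul_of_nonneg_left hmax hlen.le
  rw [hT] at this
  linarith

theorem list_sum_le_const (F : M → ℝ) (b : ℝ) (l : List M) (h : ∀ m ∈ l, F m ≤ b) :
    (l.map F).sum ≤ (l.length : ℝ) * b := by
  induction l with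
  | nil => simp
  | cons a t ih =>
    simp only [List.map_cons, List.sum_cons, List.length_cons, Nat.cast_add, Nat.cast_one]
    have h1 := h a (List.mem_cons_self)
    have h2 := ih (fun m hm => h m (List.mem_cons_of_mem a hm))
    linarith

theorem list_const_le_sum (F : M → ℝ) (b : ℝ) (l : List M) (h : ∀ m ∈ l, b ≤ F m) :
    (l.length : ℝ) * b ≤ (l.map F).sum := by
  induction l with
  | nil => simp
  | cons a t ih =>
    simp only [List.map_cons, List.sum_cons, List.length_cons, Nat.cast_add, Nat.cast_one]
    have h1 := h a (List.mem_cons_self)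
    have h2 := ih (fun m hm => h m (List.mem_cons_of_mem a hm))
    linarith

end Vale.Agent.P125.Al
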