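import Vale.Agent.P125.Al.Win2

set_option linter.unusedSectionVars false
set_option linter.unusedVariables false

namespace Vale.Agent.P125.Al

open Vale.Agent.P125.Dich
open scoped BigOperators

variable {M K : Type} (D : Dat M K)

namespace Dat

theorem muf_nonneg (l : List M) : 0 ≤ D.muf l := by
  unfold muf
  split_ifs with h
  · exact le_of_lt h.1
  · exact le_rfl

theorem wq_nonneg (l : List M) : 0 ≤ D.wq l := by
  unfold wq
  exact sq_nonneg _

theorem cpot_nonneg (l : List M) : 0 ≤ D.cpot l := by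
  unfold cpot
  exact add_nonneg (Nat.cast_nonneg _) (Nat.cast_nonneg _)

theorem ph_nonneg (l : List M) : 0 ≤ D.ph l := by
  unfold ph
  exact mul_nonneg (D.wq_nonneg l) (D.cpot_nonneg l)

theorem sg_abs_le (l : List M) : |D.sg l| ≤ 1 := by
  unfold sg
  split_ifs <;> simp

/-- if `ok (l1 ++ l2)` then `ok l1` and `mn (l1 ++ l2) ≤ mn l1`; otherwise the left side is `0` -/
theorem muf_mono_left (l1 l2 : List M) : D.muf (l1 ++ l2) ≤ D.muf l1 := by
  by_cases h : D.ok (l1 ++ l2)
  · have h1 : D.ok l1 := D.ok_left l1 l2 h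
    unfold muf
    rw [if_pos h, if_pos h1, D.mn_append]
    exact min_le_left _ _
  · have h0 : D.muf (l1 ++ l2) = 0 := by
      unfold muf
      rw [if_neg h]
    rw [h0]
    exact D.muf_nonneg l1

theorem muf_mono_right (l1 l2 : List M) : D.muf (l1 ++ l2) ≤ D.muf l2 := by
  by_cases h : D.ok (l1 ++ l2)
  · have h1 : D.ok l2 := D.ok_right l1 l2 h
    unfold muf
    rw [if_pos h, if_pos h1, D.mn_append]
    exact min_le_right _ _
  · have h0 : D.muf (l1 ++ l2) = 0 := by
      unfold muf
      rw [if_neg h]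
    rw [h0]
    exact D.muf_nonneg l2

theorem wq_mono_left (l1 l2 : List M) : D.wq (l1 ++ l2) ≤ D.wq l1 := by
  unfold wq
  exact pow_le_pow_left₀ (D.muf_nonneg _) (D.muf_mono_left l1 l2) 2

end Dat

end Vale.Agent.P125.Al
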