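import Vale.Agent.P125.Al.Dp
import Vale.Agent.P125.Al.PwBasic

set_option linter.unusedSectionVars false
set_option linter.unusedVariables false

namespace Vale.Agent.P125.Al

open Vale.Agent.P125.Dich
open scoped BigOperators

variable {M K : Type} (D : Dat M K)

namespace Dat

/-- on an ok nonempty window the direction is a sign (`dp_ne`, `SA_SB_disj`) -/
theorem sg_sq_of_ok (l : List M) (hl : l ≠ []) (h : D.ok l) : D.sg l = 1 ∨ D.sg l = -1 := by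
  have hne : D.pa l ≠ D.pb l := by
    unfold pa pb
    exact dp_ne _ _ (fun k => D.SA_SB_disj l hl h.1 k) D.ks h.2.2
  unfold sg
  rcases lt_or_gt_of_ne hne with h1 | h1
  · right
    rw [if_neg (by omega), if_pos h1]
  · left
    rw [if_pos h1]

private theorem sg_cases (l1 l2 : List M) (hs : D.sg l1 * D.sg l2 = -1) :
    (D.pb l1 < D.pa l1 ∧ D.pa l2 < D.pb l2) ∨ (D.pa l1 < D.pb l1 ∧ D.pb l2 < D.pa l2) := by
  unfold sg at hs
  by_cases c1 : D.pb l1 < D.pa l1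
  · rw [if_pos c1] at hs
    by_cases c2 : D.pb l2 < D.pa l2
    · rw [if_pos c2] at hs
      norm_num at hs
    · rw [if_neg c2] at hs
      by_cases c3 : D.pa l2 < D.pb l2
      · exact Or.inl ⟨c1, c3⟩
      · rw [if_neg c3] at hs
        norm_num at hs
  · rw [if_neg c1] at hs
    by_cases c4 : D.pa l1 < D.pb l1
    · rw [if_pos c4] at hs
      by_cases c2 : D.pb l2 < D.pa l2
      · exact Or.inr ⟨c4, c2⟩
      · rw [if_neg c2] at hs
        by_cases c3 : D.pa l2 < D.pb l2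
        · rw [if_pos c3] at hs
          norm_num at hs
        · rw [if_neg c3] at hs
          norm_num at hs
    · rw [if_neg c4] at hs
      norm_num at hs

/-- drop of the potential: `pa (l1++l2) ≤ min (pa l1) (pa l2)`, the same for `pb` (`dp_mono` with
`SA_left` ...).  If `sg l1 * sg l2 = -1`, say `pb l1 < pa l1` and `pa l2 < pb l2`, then
`pa + pb ≤ pa l2 + pb l1 ≤ (pa l1 + pb l1 + pa l2 + pb l2) / 2 - 1`. -/
theorem cpot_drop (l1 l2 : List M) :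
    D.cpot (l1 ++ l2) ≤ (D.cpot l1 + D.cpot l2) / 2
      - (if D.sg l1 * D.sg l2 = -1 then 1 else 0) := by
  have hA1 := dp_mono (D.SA l1) (D.SB l1) (D.SA (l1 ++ l2)) (D.SB (l1 ++ l2))
    (fun k => D.SA_left l1 l2 k) (fun k => D.SB_left l1 l2 k) D.ks
  have hA2 := dp_mono (D.SA l2) (D.SB l2) (D.SA (l1 ++ l2)) (D.SB (l1 ++ l2))
    (fun k => D.SA_right l1 l2 k) (fun k => D.SB_right l1 l2 k) D.ks
  have a1 : D.pa (l1 ++ l2) ≤ D.pa l1 := hA1.1
  have b1 : D.pb (l1 ++ l2) ≤ D.pb l1 := hA1.2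
  have a2 : D.pa (l1 ++ l2) ≤ D.pa l2 := hA2.1
  have b2 : D.pb (l1 ++ l2) ≤ D.pb l2 := hA2.2
  unfold cpot
  split_ifs with hs
  · have hn : 2 * (D.pa (l1 ++ l2) + D.pb (l1 ++ l2)) + 2
        ≤ D.pa l1 + D.pb l1 + D.pa l2 + D.pb l2 := by
      rcases D.sg_cases l1 l2 hs with ⟨c1, c2⟩ | ⟨c1, c2⟩ <;> omega
    have hr : (2 : ℝ) * ((D.pa (l1 ++ l2) : ℝ) + (D.pb (l1 ++ l2) : ℝ)) + 2
        ≤ (D.pa l1 : ℝ) + (D.pb l1 : ℝ) + (D.pa l2 : ℝ) + (D.pb l2 : ℝ) := by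
      exact_mod_cast hn
    linarith
  · have hn : 2 * (D.pa (l1 ++ l2) + D.pb (l1 ++ l2))
        ≤ D.pa l1 + D.pb l1 + D.pa l2 + D.pb l2 := by omega
    have hr : (2 : ℝ) * ((D.pa (l1 ++ l2) : ℝ) + (D.pb (l1 ++ l2) : ℝ))
        ≤ (D.pa l1 : ℝ) + (D.pb l1 : ℝ) + (D.pa l2 : ℝ) + (D.pb l2 : ℝ) := by
      exact_mod_cast hn
    linarith

/-- the pointwise inequality behind the recursion.  Case not `ok (l1 ++ l2)`: the left side and
`wq (l1++l2)` vanish, `ph ≥ 0` and `(a^2+b^2)/4 + a b s/2 ≥ 0` for `|s| ≤ 1`, `a, b ≥ 0`.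
Case `ok (l1 ++ l2)`: then `ok l1`, `ok l2`, `w = mn (l1++l2) ≤ a = mn l1, b = mn l2`, the
directions are signs; use `cpot_drop`; if the product of the signs is `-1`:
`0 ≤ (a-b)^2/4`; if it is `1`: `w^2 ≤ (a+b)^2/4`. -/
theorem pw_step (l1 l2 : List M) (h1 : l1 ≠ []) (h2 : l2 ≠ []) :
    D.ph (l1 ++ l2) ≤ (D.ph l1 + D.ph l2) / 2 - D.wq (l1 ++ l2)
      + (D.wq l1 + D.wq l2) / 4 + D.psi l1 * D.psi l2 / 2 := by
  have ha : 0 ≤ D.muf l1 := D.muf_nonneg l1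
  have hb : 0 ≤ D.muf l2 := D.muf_nonneg l2
  have hw : 0 ≤ D.muf (l1 ++ l2) := D.muf_nonneg _
  have hwa : D.muf (l1 ++ l2) ≤ D.muf l1 := D.muf_mono_left l1 l2
  have hwb : D.muf (l1 ++ l2) ≤ D.muf l2 := D.muf_mono_right l1 l2
  have hc1 : 0 ≤ D.cpot l1 := D.cpot_nonneg l1
  have hc2 : 0 ≤ D.cpot l2 := D.cpot_nonneg l2
  have hdrop := D.cpot_drop l1 l2
  unfold ph wq psi
  generalize D.muf l1 = a at *
  generalize D.muf l2 = b at *
  generalize hwdef : D.muf (l1 ++ l2) = w at *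
  generalize D.cpot l1 = c1 at *
  generalize D.cpot l2 = c2 at *
  generalize D.cpot (l1 ++ l2) = c at *
  have hwa2 : w ^ 2 ≤ a ^ 2 := pow_le_pow_left₀ hw hwa 2
  have hwb2 : w ^ 2 ≤ b ^ 2 := pow_le_pow_left₀ hw hwb 2
  have hw2 : 0 ≤ w ^ 2 := sq_nonneg w
  by_cases hok : D.ok (l1 ++ l2)
  · have s1 := D.sg_sq_of_ok l1 h1 (D.ok_left l1 l2 hok)
    have s2 := D.sg_sq_of_ok l2 h2 (D.ok_right l1 l2 hok)
    have e1 : w ^ 2 * c1 ≤ a ^ 2 * c1 := mul_le_mul_of_nonneg_right hwa2 hc1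
    have e2 : w ^ 2 * c2 ≤ b ^ 2 * c2 := mul_le_mul_of_nonneg_right hwb2 hc2
    rcases s1 with s1 | s1 <;> rcases s2 with s2 | s2 <;> rw [s1, s2] at hdrop ⊢
    · norm_num at hdrop
      have e3 : w ^ 2 * c ≤ w ^ 2 * ((c1 + c2) / 2) := mul_le_mul_of_nonneg_left hdrop hw2
      nlinarith [mul_nonneg ha hb, mul_le_mul hwa hwb hw ha]
    · norm_num at hdrop
      have e3 : w ^ 2 * c ≤ w ^ 2 * ((c1 + c2) / 2 - 1) := mul_le_mul_of_nonneg_left hdrop hw2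
      nlinarith [sq_nonneg (a - b)]
    · norm_num at hdrop
      have e3 : w ^ 2 * c ≤ w ^ 2 * ((c1 + c2) / 2 - 1) := mul_le_mul_of_nonneg_left hdrop hw2
      nlinarith [sq_nonneg (a - b)]
    · norm_num at hdrop
      have e3 : w ^ 2 * c ≤ w ^ 2 * ((c1 + c2) / 2) := mul_le_mul_of_nonneg_left hdrop hw2
      nlinarith [mul_nonneg ha hb, mul_le_mul hwa hwb hw ha]
  · have hw0 : w = 0 := by
      rw [← hwdef]
      unfold muf
      rw [if_neg hok]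
    subst hw0
    have t1 := abs_le.1 (D.sg_abs_le l1)
    have t2 := abs_le.1 (D.sg_abs_le l2)
    generalize D.sg l1 = s1 at *
    generalize D.sg l2 = s2 at *
    have hs : -1 ≤ s1 * s2 := by nlinarith [t1.1, t1.2, t2.1, t2.2]
    have hab : 0 ≤ a * b := mul_nonneg ha hb
    have h3 : -(a * b) ≤ a * b * (s1 * s2) := by nlinarith
    have h4 : 0 ≤ a ^ 2 * c1 := mul_nonneg (sq_nonneg a) hc1
    have h5 : 0 ≤ b ^ 2 * c2 := mul_nonneg (sq_nonneg b) hc2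
    nlinarith [sq_nonneg (a - b)]

end Dat

end Vale.Agent.P125.Al
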