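import Vale.Agent.P125.Al.Dp
import Vale.Agent.P125.Al.Win

set_option linter.unusedSectionVars false
set_option linter.unusedVariables false

namespace Vale.Agent.P125.Al

open Vale.Agent.P125.Dich
open scoped BigOperators

variable {M K : Type} (D : Dat M K)

namespace Dat

private theorem mn_rev (inv : M → M) (h2 : ∀ m, D.N (inv m) = D.N m) (l : List M) :
    D.mn ((l.map inv).reverse) = D.mn l := by
  induction l with
  | nil => rfl
  | cons m t ih =>
    rw [List.map_cons, List.reverse_cons, D.mn_append, ih]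
    show min (D.mn t) (min (D.N (inv m)) D.Bd) = min (D.N m) (D.mn t)
    rw [h2, min_comm (D.N m) D.Bd, ← min_assoc, min_eq_left (D.mn_le_Bd t), min_comm]

private theorem mx_rev (inv : M → M) (h2 : ∀ m, D.N (inv m) = D.N m) (l : List M) :
    D.mx ((l.map inv).reverse) = D.mx l := by
  induction l with
  | nil => rfl
  | cons m t ih =>
    rw [List.map_cons, List.reverse_cons, D.mx_append, ih]
    show max (D.mx t) (max (D.N (inv m)) 0) = max (D.N m) (D.mx t)
    rw [h2, max_comm (D.N m) 0, ← max_assoc, max_eq_left (D.mx_nonneg t), max_comm]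

private theorem dA_rev (inv : M → M) (h1 : ∀ m k, D.g (inv m) k = - D.g m k)
    (h2 : ∀ m, D.N (inv m) = D.N m) (l : List M) (k : K) :
    D.dA ((l.map inv).reverse) k = D.dB l k := by
  unfold dA dB
  rw [List.map_reverse, List.sum_reverse, List.map_map]
  congr 1
  apply List.map_congr_left
  intro m _
  simp only [Function.comp, h1, h2]
  ring

private theorem dB_rev (inv : M → M) (h1 : ∀ m k, D.g (inv m) k = - D.g m k)
    (h2 : ∀ m, D.N (inv m) = D.N m) (l : List M) (k : K) :
    D.dB ((l.map inv).reverse) k = D.dA l k := by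
  unfold dA dB
  rw [List.map_reverse, List.sum_reverse, List.map_map]
  congr 1
  apply List.map_congr_left
  intro m _
  simp only [Function.comp, h1, h2]
  ring

private theorem SA_rev (inv : M → M) (h1 : ∀ m k, D.g (inv m) k = - D.g m k)
    (h2 : ∀ m, D.N (inv m) = D.N m) (l : List M) :
    D.SA ((l.map inv).reverse) = D.SB l := by
  funext k
  unfold SA SB
  rw [D.dA_rev inv h1 h2, D.mn_rev inv h2]

private theorem SB_rev (inv : M → M) (h1 : ∀ m k, D.g (inv m) k = - D.g m k)
    (h2 : ∀ m, D.N (inv m) = D.N m) (l : List M) :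
    D.SB ((l.map inv).reverse) = D.SA l := by
  funext k
  unfold SA SB
  rw [D.dB_rev inv h1 h2, D.mn_rev inv h2]

private theorem ok_rev (inv : M → M) (h1 : ∀ m k, D.g (inv m) k = - D.g m k)
    (h2 : ∀ m, D.N (inv m) = D.N m) (l : List M) :
    D.ok ((l.map inv).reverse) ↔ D.ok l := by
  unfold ok
  rw [D.mn_rev inv h2, D.mx_rev inv h2, D.SA_rev inv h1 h2, D.SB_rev inv h1 h2]
  constructor
  · rintro ⟨a, b, k, hk, hc⟩
    exact ⟨a, b, k, hk, hc.symm⟩
  · rintro ⟨a, b, k, hk, hc⟩
    exact ⟨a, b, k, hk, hc.symm⟩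

private theorem pa_rev (inv : M → M) (h1 : ∀ m k, D.g (inv m) k = - D.g m k)
    (h2 : ∀ m, D.N (inv m) = D.N m) (l : List M) :
    D.pa ((l.map inv).reverse) = D.pb l := by
  unfold pa pb
  rw [D.SA_rev inv h1 h2, D.SB_rev inv h1 h2, dp_swap]

private theorem pb_rev (inv : M → M) (h1 : ∀ m k, D.g (inv m) k = - D.g m k)
    (h2 : ∀ m, D.N (inv m) = D.N m) (l : List M) :
    D.pb ((l.map inv).reverse) = D.pa l := by
  unfold pa pb
  rw [D.SA_rev inv h1 h2, D.SB_rev inv h1 h2, dp_swap]

private theorem sg_rev (inv : M → M) (h1 : ∀ m k, D.g (inv m) k = - D.g m k)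
    (h2 : ∀ m, D.N (inv m) = D.N m) (l : List M) :
    D.sg ((l.map inv).reverse) = - D.sg l := by
  unfold sg
  rw [D.pa_rev inv h1 h2, D.pb_rev inv h1 h2]
  rcases lt_trichotomy (D.pa l) (D.pb l) with c | c | c
  · rw [if_pos c, if_neg (not_lt.2 c.le), if_pos c]
    norm_num
  · rw [if_neg (by omega), if_neg (by omega), if_neg (by omega), if_neg (by omega)]
    norm_num
  · rw [if_neg (not_lt.2 c.le), if_pos c, if_pos c]

private theorem muf_rev (inv : M → M) (h1 : ∀ m k, D.g (inv m) k = - D.g m k)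
    (h2 : ∀ m, D.N (inv m) = D.N m) (l : List M) :
    D.muf ((l.map inv).reverse) = D.muf l := by
  unfold muf
  by_cases h : D.ok l
  · rw [if_pos h, if_pos ((D.ok_rev inv h1 h2 l).2 h), D.mn_rev inv h2]
  · rw [if_neg h, if_neg (fun h' => h ((D.ok_rev inv h1 h2 l).1 h'))]

/-- time reversal: `mn`, `mx` are invariant (use `mn_append`, `mx_append`, induction), `dA` and `dB`
are exchanged, hence `SA`, `SB` are exchanged (funext + propext), `ok` is invariant, `pa`, `pb` are
exchanged (`dp_swap`), `sg` changes sign, `muf` is invariant. -/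
theorem psi_rev (inv : M → M) (h1 : ∀ m k, D.g (inv m) k = - D.g m k)
    (h2 : ∀ m, D.N (inv m) = D.N m) (l : List M) :
    D.psi ((l.map inv).reverse) = - D.psi l := by
  unfold psi
  rw [D.muf_rev inv h1 h2, D.sg_rev inv h1 h2]
  ring

end Dat

end Vale.Agent.P125.Al
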