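import Vale.Agent.P125.Al.PwStep
import Vale.Agent.P125.Al.Rev
import Vale.Agent.P125.Al.Iid

set_option linter.unusedSectionVars false
set_option linter.unusedVariables false

namespace Vale.Agent.P125.Al

open Vale.Agent.P125.Dich
open scoped BigOperators

variable {S M K : Type} [Fintype S] [Fintype M] (C : MChain S M) (D : Dat M K)

theorem rec_step (h1 : ∀ m k, D.g (C.inv m) k = - D.g m k) (h2 : ∀ m, D.N (C.inv m) = D.N m)
    (a : ℕ) (ha : 1 ≤ a) :
    C.E (a + a) D.ph ≤ C.E a D.ph - C.E (a + a) D.wq + C.E a D.wq / 2 := by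
  have hpw : ∀ l : List M, l.length = a + a →
      D.ph l ≤ (1 / 2) * D.ph (l.take a) + ((1 / 2) * D.ph (l.drop a) + ((-1) * D.wq l
        + ((1 / 4) * D.wq (l.take a) + ((1 / 4) * D.wq (l.drop a)
          + (1 / 2) * (D.psi (l.take a) * D.psi (l.drop a)))))) := by
    intro l hl
    have e : l.take a ++ l.drop a = l := List.take_append_drop a l
    have n1 : l.take a ≠ [] := by
      intro h
      have := congrArg List.length h
      rw [List.length_take, hl] at this
      simp at this
      omega
    have n2 : l.drop a ≠ [] := by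
      intro h
      have := congrArg List.length h
      rw [List.length_drop, hl] at this
      simp at this
      omega
    have := D.pw_step (l.take a) (l.drop a) n1 n2
    rw [e] at this
    linarith
  have hE := E_mono C (a + a) _ _ hpw
  rw [E_add, E_add, E_add, E_add, E_add, E_const_mul, E_const_mul, E_const_mul, E_const_mul,
    E_const_mul, E_const_mul, E_take C a a D.ph, E_drop C a a D.ph, E_take C a a D.wq,
    E_drop C a a D.wq] at hE
  have hi := iid_step C a D.psi (fun l => D.psi_rev C.inv h1 h2 l)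
  linarith

theorem Q_mono (a b : ℕ) : C.E (a + b) D.wq ≤ C.E a D.wq := by
  have h : ∀ l : List M, l.length = a + b → D.wq l ≤ D.wq (l.take a) := by
    intro l _
    have e : l.take a ++ l.drop a = l := List.take_append_drop a l
    have := D.wq_mono_left (l.take a) (l.drop a)
    rwa [e] at this
  have hE := E_mono C (a + b) _ _ h
  rwa [E_take C a b D.wq] at hE

theorem Q_bound (h1 : ∀ m k, D.g (C.inv m) k = - D.g m k) (h2 : ∀ m, D.N (C.inv m) = D.N m)
    (L : ℕ) : ((L : ℝ) + 1) * C.E (2 ^ L) D.wq ≤ 2 * C.E 1 D.ph + C.E 1 D.wq := by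
  have key : ∀ L : ℕ, C.E (2 ^ L) D.ph + ((L : ℝ) + 1) / 2 * C.E (2 ^ L) D.wq
      ≤ C.E 1 D.ph + C.E 1 D.wq / 2 := by
    intro L
    induction L with
    | zero =>
      simp only [pow_zero, Nat.cast_zero, zero_add]
      linarith
    | succ L ih =>
      have e : 2 ^ (L + 1) = 2 ^ L + 2 ^ L := by ring
      have hr := rec_step C D h1 h2 (2 ^ L) Nat.one_le_two_pow
      have hm := Q_mono C D (2 ^ L) (2 ^ L)
      rw [e]
      push_cast
      have hL : (0 : ℝ) ≤ (L : ℝ) := Nat.cast_nonneg L
      nlinarith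
  have hk := key L
  have hp : 0 ≤ C.E (2 ^ L) D.ph := E_nonneg C _ _ (fun l _ => D.ph_nonneg l)
  linarith

end Vale.Agent.P125.Al
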