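import Vale.Agent.P125.Al.BVf
import Vale.Agent.P125.Al.L1Triv
import Vale.Agent.P125.Dich.Iter

set_option linter.unusedSectionVars false
set_option linter.unusedVariables false

namespace Vale.Agent.P125.Al

open Vale.Agent.P125.Dich
open scoped BigOperators

private lemma U_nonneg64 {n : ℕ} {S : Type} [Fintype S] (μ : S → ℝ) (P : Matrix S S ℝ)
    (hC : IsChain μ P) (F : S → S → ℝ) (hF : ∀ i j, 0 ≤ F i j) :
    0 ≤ ∑ i, ∑ j, μ i * P i j * F i j := by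
  obtain ⟨h1, _, h3, _, _⟩ := hC
  exact Finset.sum_nonneg fun i _ => Finset.sum_nonneg fun j _ =>
    mul_nonneg (mul_nonneg (h1 i) (h3 i j)) (hF i j)

private lemma sum_mono64 {S : Type} [Fintype S] (μ : S → ℝ) (P : Matrix S S ℝ)
    (hC : IsChain μ P) (F G : S → S → ℝ) (hF : ∀ i j, F i j ≤ G i j) :
    ∑ i, ∑ j, μ i * P i j * F i j ≤ ∑ i, ∑ j, μ i * P i j * G i j := by
  obtain ⟨h1, _, h3, _, _⟩ := hC
  exact Finset.sum_le_sum fun i _ => Finset.sum_le_sum fun j _ =>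
    mul_le_mul_of_nonneg_left (hF i j) (mul_nonneg (h1 i) (h3 i j))

theorem hop_one : HOp 1 1 := by
  intro n S _ _ μ P hC f
  rw [pow_one]
  have h := sum_mono64 μ P hC (fun i j => jn (f j - f i) ^ 2) (fun i j => l1 (f j - f i) ^ 2)
    (fun i j => pow_le_pow_left₀ (jn_nonneg _) (jn_le_l1 _) 2)
  simpa using h

theorem hop_mono (t : ℕ) (a b : ℝ) (hab : a ≤ b) (h : HOp t a) : HOp t b := by
  intro n S _ _ μ P hC f
  have h0 := h n S μ P hC f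
  have hU : 0 ≤ ∑ i, ∑ j, μ i * P i j * l1 (f j - f i) ^ 2 :=
    U_nonneg64 (n := n) μ P hC (fun i j => l1 (f j - f i) ^ 2) (fun i j => by positivity)
  have ht : (0 : ℝ) ≤ (t : ℝ) ^ 2 := by positivity
  calc ∑ i, ∑ j, μ i * (P ^ t) i j * jn (f j - f i) ^ 2
      ≤ a * (t : ℝ) ^ 2 * ∑ i, ∑ j, μ i * P i j * l1 (f j - f i) ^ 2 := h0
    _ ≤ b * (t : ℝ) ^ 2 * ∑ i, ∑ j, μ i * P i j * l1 (f j - f i) ^ 2 := by
        apply mul_le_mul_of_nonneg_right _ hU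
        exact mul_le_mul_of_nonneg_right hab ht

private lemma scalar64 (M Lp a ε T x v y : ℝ) (hM : 1 ≤ M) (hε : 0 < ε) (hεa : ε ≤ a)
    (ha1 : a ≤ 1) (hL : 64 / ε ≤ Lp) (hT : 0 ≤ T) (hx0 : 0 ≤ x) (hx : x ≤ a * T) (hv : v ≤ T)
    (hy : y ≤ (x + v) / 2) :
    (M ^ 2 - M / 16) * x + M / 4 * ((5 * x + 8 / 3 * y) / Lp)
      ≤ a * (1 - 1 / (32 * M)) * (M ^ 2 * T) := by
  have hM0 : 0 < M := by linarith
  have hLp : 0 < Lp := lt_of_lt_of_le (by positivity) hL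
  have h64 : 64 ≤ ε * Lp := by
    rw [div_le_iff₀ hε] at hL
    linarith
  have hc : 0 ≤ M ^ 2 - M / 16 := by nlinarith
  have h1 : (M ^ 2 - M / 16) * x ≤ (M ^ 2 - M / 16) * (a * T) :=
    mul_le_mul_of_nonneg_left hx hc
  have haT : a * T ≤ T := by nlinarith
  have h2 : 5 * x + 8 / 3 * y ≤ 8 * T := by linarith
  have h3 : (5 * x + 8 / 3 * y) / Lp ≤ a * T / 8 := by
    rw [div_le_iff₀ hLp]
    have h4 : 64 * T ≤ ε * Lp * T := mul_le_mul_of_nonneg_right h64 hT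
    have h5 : ε * Lp * T ≤ a * Lp * T := by
      apply mul_le_mul_of_nonneg_right _ hT
      exact mul_le_mul_of_nonneg_right hεa hLp.le
    nlinarith
  have h6 : M / 4 * ((5 * x + 8 / 3 * y) / Lp) ≤ M / 4 * (a * T / 8) :=
    mul_le_mul_of_nonneg_left h3 (by positivity)
  have h7 : a * (1 - 1 / (32 * M)) * (M ^ 2 * T) = a * M ^ 2 * T - a * M * T / 32 := by
    field_simp
  rw [h7]
  nlinarith

/-- one round.  Apply `bv_fun` to the chain `(μ, P ^ t)` (`isChain_pow`), `(P ^ t) ^ (2 ^ L) =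
P ^ (2 ^ L * t)` (`pow_mul`, `mul_comm`).  With `U = ∑ μ P l1^2`, `x = ∑ μ P^t jn^2 ≤ a t^2 U` (h),
`v = ∑ μ P^t l1^2 ≤ t^2 U` (`l1_triv`), `y = ∑ μ P^t jn l1 ≤ (x + v)/2` (termwise
`2 p q ≤ p^2 + q^2`), `M = 2^L ≥ 1`:
bound `≤ (M^2 - M/16) x + (M/4) (5 x + (4/3)(x + v))/(L+1)
≤ t^2 U [a M^2 - a M/16 + (M/4) * 8/(L+1)]` (as `a ≤ 1`, coefficient of `x` nonnegative) and
`2 M/(L+1) ≤ M ε/32 ≤ a M/32`. -/
theorem hop_step (t L : ℕ) (a ε : ℝ) (h : HOp t a) (hε : 0 < ε) (hεa : ε ≤ a) (ha1 : a ≤ 1)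
    (hL : 64 / ε ≤ (L : ℝ) + 1) :
    HOp (2 ^ L * t) (a * (1 - 1 / (32 * (2 : ℝ) ^ L))) := by
  intro n S _ _ μ P hC f
  have hCt : IsChain μ (P ^ t) := isChain_pow hC t
  have hbv := bv_fun μ (P ^ t) hCt f L
  have e : (P ^ t) ^ (2 ^ L) = P ^ (2 ^ L * t) := by
    rw [← pow_mul, mul_comm]
  rw [e] at hbv
  set U : ℝ := ∑ i, ∑ j, μ i * P i j * l1 (f j - f i) ^ 2 with hUdef
  set x : ℝ := ∑ i, ∑ j, μ i * (P ^ t) i j * jn (f j - f i) ^ 2 with hxdef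
  set v : ℝ := ∑ i, ∑ j, μ i * (P ^ t) i j * l1 (f j - f i) ^ 2 with hvdef
  set y : ℝ := ∑ i, ∑ j, μ i * (P ^ t) i j * (jn (f j - f i) * l1 (f j - f i)) with hydef
  have hU : 0 ≤ U :=
    U_nonneg64 (n := n) μ P hC (fun i j => l1 (f j - f i) ^ 2) (fun i j => by positivity)
  have hx0 : 0 ≤ x :=
    U_nonneg64 (n := n) μ (P ^ t) hCt (fun i j => jn (f j - f i) ^ 2) (fun i j => by positivity)
  have hx : x ≤ a * ((t : ℝ) ^ 2 * U) := by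
    have := h n S μ P hC f
    rw [mul_assoc] at this
    exact this
  have hv : v ≤ (t : ℝ) ^ 2 * U := l1_triv μ P hC f t
  have hy : y ≤ (x + v) / 2 := by
    have h1 := sum_mono64 μ (P ^ t) hCt (fun i j => jn (f j - f i) * l1 (f j - f i))
      (fun i j => (jn (f j - f i) ^ 2 + l1 (f j - f i) ^ 2) / 2)
      (fun i j => by nlinarith [sq_nonneg (jn (f j - f i) - l1 (f j - f i))])
    have h2 : ∑ i, ∑ j, μ i * (P ^ t) i j * ((jn (f j - f i) ^ 2 + l1 (f j - f i) ^ 2) / 2)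
        = (x + v) / 2 := by
      rw [hxdef, hvdef, ← Finset.sum_add_distrib, Finset.sum_div]
      refine Finset.sum_congr rfl fun i _ => ?_
      rw [← Finset.sum_add_distrib, Finset.sum_div]
      refine Finset.sum_congr rfl fun j _ => ?_
      ring
    rw [h2] at h1
    exact h1
  have hM : (1 : ℝ) ≤ (2 : ℝ) ^ L := one_le_pow₀ (by norm_num)
  have hT : 0 ≤ (t : ℝ) ^ 2 * U := by positivity
  have key := scalar64 ((2 : ℝ) ^ L) ((L : ℝ) + 1) a ε ((t : ℝ) ^ 2 * U) x v y hM hε hεa ha1 hL hT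
    hx0 hx hv hy
  calc ∑ i, ∑ j, μ i * (P ^ (2 ^ L * t)) i j * jn (f j - f i) ^ 2
      ≤ (((2 : ℝ) ^ L) ^ 2 - (2 : ℝ) ^ L / 16) * x
        + (2 : ℝ) ^ L / 4 * ((5 * x + 8 / 3 * y) / ((L : ℝ) + 1)) := hbv
    _ ≤ a * (1 - 1 / (32 * (2 : ℝ) ^ L)) * (((2 : ℝ) ^ L) ^ 2 * ((t : ℝ) ^ 2 * U)) := key
    _ = a * (1 - 1 / (32 * (2 : ℝ) ^ L)) * (((2 ^ L * t : ℕ) : ℝ)) ^ 2 * U := by
        push_cast
        ring

end Vale.Agent.P125.Al
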