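import Vale.Agent.P125.Al.Win

set_option linter.unusedSectionVars false
set_option linter.unusedVariables false

namespace Vale.Agent.P125.Al

open Vale.Agent.P125.Dich
open scoped BigOperators

variable {M K : Type} (D : Dat M K)

namespace Dat

theorem SA_left (l1 l2 : List M) (k : K) (h : D.SA (l1 ++ l2) k) : D.SA l1 k := by
  unfold SA at h ⊢
  rw [dA_append, mn_append] at h
  have h1 := D.dA_nonneg l2 k
  have h2 : min (D.mn l1) (D.mn l2) ≤ D.mn l1 := min_le_left _ _
  linarith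

theorem SA_right (l1 l2 : List M) (k : K) (h : D.SA (l1 ++ l2) k) : D.SA l2 k := by
  unfold SA at h ⊢
  rw [dA_append, mn_append] at h
  have h1 := D.dA_nonneg l1 k
  have h2 : min (D.mn l1) (D.mn l2) ≤ D.mn l2 := min_le_right _ _
  linarith

theorem SB_left (l1 l2 : List M) (k : K) (h : D.SB (l1 ++ l2) k) : D.SB l1 k := by
  unfold SB at h ⊢
  rw [dB_append, mn_append] at h
  have h1 := D.dB_nonneg l2 k
  have h2 : min (D.mn l1) (D.mn l2) ≤ D.mn l1 := min_le_left _ _
  linarith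

theorem SB_right (l1 l2 : List M) (k : K) (h : D.SB (l1 ++ l2) k) : D.SB l2 k := by
  unfold SB at h ⊢
  rw [dB_append, mn_append] at h
  have h1 := D.dB_nonneg l1 k
  have h2 : min (D.mn l1) (D.mn l2) ≤ D.mn l2 := min_le_right _ _
  linarith

theorem ok_left (l1 l2 : List M) (h : D.ok (l1 ++ l2)) : D.ok l1 := by
  obtain ⟨h0, h1, k, hk, hAB⟩ := h
  have e1 := D.mn_append l1 l2
  have e2 := D.mx_append l1 l2
  have a1 : min (D.mn l1) (D.mn l2) ≤ D.mn l1 := min_le_left _ _
  have a2 : D.mx l1 ≤ max (D.mx l1) (D.mx l2) := le_max_left _ _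
  refine ⟨by linarith, by linarith, k, hk, ?_⟩
  rcases hAB with h | h
  · exact Or.inl (D.SA_left l1 l2 k h)
  · exact Or.inr (D.SB_left l1 l2 k h)

theorem ok_right (l1 l2 : List M) (h : D.ok (l1 ++ l2)) : D.ok l2 := by
  obtain ⟨h0, h1, k, hk, hAB⟩ := h
  have e1 := D.mn_append l1 l2
  have e2 := D.mx_append l1 l2
  have a1 : min (D.mn l1) (D.mn l2) ≤ D.mn l2 := min_le_right _ _
  have a2 : D.mx l2 ≤ max (D.mx l1) (D.mx l2) := le_max_right _ _
  refine ⟨by linarith, by linarith, k, hk, ?_⟩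
  rcases hAB with h | h
  · exact Or.inl (D.SA_right l1 l2 k h)
  · exact Or.inr (D.SB_right l1 l2 k h)

/-- `dA + dB = 2 * sum N ≥ 2 * mn` for a nonempty window -/
theorem SA_SB_disj (l : List M) (hl : l ≠ []) (h0 : 0 < D.mn l) (k : K) :
    ¬ (D.SA l k ∧ D.SB l k) := by
  rintro ⟨hA, hB⟩
  unfold SA at hA
  unfold SB at hB
  cases l with
  | nil => exact hl rfl
  | cons m t =>
    have e1 : D.dA (m :: t) k = (D.N m - D.g m k) + D.dA t k := by
      simp [dA]
    have e2 : D.dB (m :: t) k = (D.N m + D.g m k) + D.dB t k := by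
      simp [dB]
    have a1 := D.dA_nonneg t k
    have a2 := D.dB_nonneg t k
    have a3 : D.mn (m :: t) ≤ D.N m := D.mn_le_of_mem (m :: t) m List.mem_cons_self
    linarith

end Dat

end Vale.Agent.P125.Al
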